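import Vale.Agent.Lib.P356.Conf

/-! # P356 leaves L3, L6: operators acting as the identity on a set of sites -/

namespace Vale.Agent.P356

open scoped BigOperators Matrix

set_option linter.unusedSectionVars false

variable {V : Type*} [Fintype V] [DecidableEq V] {q : ℕ}

/-- `Y` does not depend on the configuration inside `D`. -/
def DInv (D : Finset V) (Y : (V → Fin q) → ℂ) : Prop :=
  ∀ σ σ' : V → Fin q, (∀ x, x ∉ D → σ x = σ' x) → Y σ = Y σ'

/-- L6a -/
theorem ActsOn.mono {X Y : Finset V} (hXY : X ⊆ Y) {h : Matrix (V → Fin q) (V → Fin q) ℂ}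
    (hh : ActsOn X h) : ActsOn Y h := by
  refine ⟨?_, ?_⟩
  · rintro σ τ ⟨x, hx, hne⟩
    exact hh.1 σ τ ⟨x, fun hxX => hx (hXY hxX), hne⟩
  · intro σ τ σ' τ' h1 h2 h3 h4
    by_cases hc : ∀ x, x ∉ X → σ x = τ x
    · refine hh.2 σ τ σ' τ' hc ?_ (fun x hx => h3 x (hXY hx)) (fun x hx => h4 x (hXY hx))
      intro x hx
      by_cases hxY : x ∈ Y
      · rw [← h3 x hxY, ← h4 x hxY]
        exact hc x hx
      · exact h2 x hxY
    · have hc' : ∃ x, x ∉ X ∧ σ x ≠ τ x := by
        by_contra hcon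
        apply hc
        intro x hx
        by_contra hne
        exact hcon ⟨x, hx, hne⟩
      obtain ⟨x, hx, hne⟩ := hc'
      have hxY : x ∈ Y := by
        by_contra hxY
        exact hne (h1 x hxY)
      have hne' : σ' x ≠ τ' x := by
        rw [← h3 x hxY, ← h4 x hxY]
        exact hne
      rw [hh.1 σ τ ⟨x, hx, hne⟩, hh.1 σ' τ' ⟨x, hx, hne'⟩]

/-- L6b -/
theorem ActsOn.zero (X : Finset V) : ActsOn X (0 : Matrix (V → Fin q) (V → Fin q) ℂ) := by
  refine ⟨?_, ?_⟩
  · intro σ τ _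
    rfl
  · intro σ τ σ' τ' _ _ _ _
    rfl

/-- L6c -/
theorem ActsOn.sum {ι : Type*} (s : Finset ι) (X : Finset V)
    (h : ι → Matrix (V → Fin q) (V → Fin q) ℂ) (hh : ∀ i ∈ s, ActsOn X (h i)) :
    ActsOn X (∑ i ∈ s, h i) := by
  refine ⟨?_, ?_⟩
  · intro σ τ hx
    rw [Matrix.sum_apply]
    exact Finset.sum_eq_zero fun i hi => (hh i hi).1 σ τ hx
  · intro σ τ σ' τ' h1 h2 h3 h4
    rw [Matrix.sum_apply, Matrix.sum_apply]
    exact Finset.sum_congr rfl fun i hi => (hh i hi).2 σ τ σ' τ' h1 h2 h3 h4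

/-- L3a: an operator acting as the identity on `D` maps functions independent of the
configuration in `D` to such functions. -/
theorem DInv.mulVec {D : Finset V} {G : Matrix (V → Fin q) (V → Fin q) ℂ} (hG : ActsOn Dᶜ G)
    {Y : (V → Fin q) → ℂ} (hY : DInv D Y) : DInv D (G *ᵥ Y) := by
  intro σ σ' hσ
  simp only [Matrix.mulVec, dotProduct]
  let F : ∀ _ : V, Fin q ≃ Fin q :=
    fun x => if x ∈ D then Equiv.swap (σ x) (σ' x) else Equiv.refl _
  let e : (V → Fin q) ≃ (V → Fin q) := Equiv.piCongrRight F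
  have he : ∀ τ x, e τ x = F x (τ x) := fun τ x => rfl
  have heD : ∀ τ x, x ∈ D → e τ x = Equiv.swap (σ x) (σ' x) (τ x) := by
    intro τ x hx
    rw [he]
    simp only [F, if_pos hx]
  have heN : ∀ τ x, x ∉ D → e τ x = τ x := by
    intro τ x hx
    rw [he]
    simp only [F, if_neg hx]
    rfl
  apply Fintype.sum_equiv e
  intro τ
  have hYe : Y τ = Y (e τ) := hY _ _ (fun x hx => (heN τ x hx).symm)
  rw [← hYe]
  congr 1
  by_cases h : ∀ x, x ∈ D → σ x = τ x
  · apply hG.2
    · intro x hx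
      exact h x (by simpa using hx)
    · intro x hx
      have hx' : x ∈ D := by simpa using hx
      rw [heD τ x hx', ← h x hx', Equiv.swap_apply_left]
    · intro x hx
      exact hσ x (by simpa using hx)
    · intro x hx
      exact (heN τ x (by simpa using hx)).symm
  · rw [not_forall] at h
    obtain ⟨x, hx⟩ := h
    rw [Classical.not_imp] at hx
    obtain ⟨hx, hne⟩ := hx
    have hne' : σ' x ≠ e τ x := by
      rw [heD τ x hx]
      intro hcon
      apply hne
      have h2 := congrArg (Equiv.swap (σ x) (σ' x)) hcon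
      rw [Equiv.swap_apply_right, Equiv.swap_apply_self] at h2
      exact h2
    rw [hG.1 σ τ ⟨x, by simpa using hx, hne⟩, hG.1 σ' (e τ) ⟨x, by simpa using hx, hne'⟩]

/-- L3b: an operator acting as the identity on `D` commutes with multiplication by a function of
the configuration in `D`. -/
theorem mulVec_mul_of_dep {D : Finset V} {G : Matrix (V → Fin q) (V → Fin q) ℂ}
    (hG : ActsOn Dᶜ G) (w Y : (V → Fin q) → ℂ)
    (hw : ∀ σ σ' : V → Fin q, (∀ x, x ∈ D → σ x = σ' x) → w σ = w σ') :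
    G *ᵥ (fun σ => w σ * Y σ) = fun σ => w σ * (G *ᵥ Y) σ := by
  funext σ
  simp only [Matrix.mulVec, dotProduct]
  rw [Finset.mul_sum]
  apply Finset.sum_congr rfl
  intro τ _
  by_cases h : ∀ x, x ∈ D → σ x = τ x
  · rw [hw τ σ (fun x hx => (h x hx).symm)]
    ring
  · rw [not_forall] at h
    obtain ⟨x, hx⟩ := h
    rw [Classical.not_imp] at hx
    obtain ⟨hx, hne⟩ := hx
    rw [hG.1 σ τ ⟨x, by simpa using hx, hne⟩]
    ring

end Vale.Agent.P356
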