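import Vale.Agent.Lib.P356.Defs

/-! # P356: restriction / gluing of configurations -/

namespace Vale.Agent.P356

open scoped BigOperators Matrix

set_option linter.unusedSectionVars false

variable {V : Type*} [Fintype V] [DecidableEq V] {q : ℕ}

/-- restriction of a configuration to `A` -/
def resIn (A : Finset V) (σ : V → Fin q) : {x // x ∈ A} → Fin q := fun x => σ x
/-- restriction of a configuration to the complement of `A` -/
def resOut (A : Finset V) (σ : V → Fin q) : {x // x ∉ A} → Fin q := fun x => σ x

theorem glue_of_mem (A : Finset V) (a : {x // x ∈ A} → Fin q) (b : {x // x ∉ A} → Fin q)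
    {x : V} (hx : x ∈ A) : glue A a b x = a ⟨x, hx⟩ := by
  simp [glue, hx]

theorem glue_of_not_mem (A : Finset V) (a : {x // x ∈ A} → Fin q) (b : {x // x ∉ A} → Fin q)
    {x : V} (hx : x ∉ A) : glue A a b x = b ⟨x, hx⟩ := by
  simp [glue, hx]

@[simp] theorem glue_res (A : Finset V) (σ : V → Fin q) :
    glue A (resIn A σ) (resOut A σ) = σ := by
  funext x
  by_cases hx : x ∈ A
  · simp [glue, hx, resIn]
  · simp [glue, hx, resOut]

@[simp] theorem resIn_glue (A : Finset V) (a : {x // x ∈ A} → Fin q)
    (b : {x // x ∉ A} → Fin q) : resIn A (glue A a b) = a := by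
  funext x
  simp [resIn, glue, x.2]

@[simp] theorem resOut_glue (A : Finset V) (a : {x // x ∈ A} → Fin q)
    (b : {x // x ∉ A} → Fin q) : resOut A (glue A a b) = b := by
  funext x
  simp [resOut, glue, x.2]

/-- configurations on `V` = configurations on `A` × configurations off `A` -/
def confEquiv (A : Finset V) :
    (V → Fin q) ≃ ({x // x ∈ A} → Fin q) × ({x // x ∉ A} → Fin q) where
  toFun σ := (resIn A σ, resOut A σ)
  invFun p := glue A p.1 p.2
  left_inv σ := glue_res A σ
  right_inv p := by simp

theorem sum_conf (A : Finset V) (f : (V → Fin q) → ℂ) :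
    ∑ σ, f σ = ∑ a, ∑ b, f (glue A a b) := by
  rw [← Fintype.sum_prod_type']
  exact (Equiv.sum_comp (confEquiv A).symm f).symm

theorem resIn_eq_iff (A : Finset V) (σ τ : V → Fin q) :
    resIn A σ = resIn A τ ↔ ∀ x, x ∈ A → σ x = τ x := by
  constructor
  · intro h x hx
    exact congrFun h ⟨x, hx⟩
  · intro h
    funext x
    exact h x x.2

theorem resOut_eq_iff (A : Finset V) (σ τ : V → Fin q) :
    resOut A σ = resOut A τ ↔ ∀ x, x ∉ A → σ x = τ x := by
  constructor
  · intro h x hx
    exact congrFun h ⟨x, hx⟩
  · intro h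
    funext x
    exact h x x.2

end Vale.Agent.P356
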