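import Mathlib

/-! # P356 leaf L1: a simple eigenvector lies in every invariant subspace it is not orthogonal to -/

namespace Vale.Agent.P356

open scoped BigOperators Matrix
open Polynomial

theorem krylov_pow_mem {n : Type*} [Fintype n] [DecidableEq n] (H : Matrix n n ℂ)
    (K : Submodule ℂ (n → ℂ)) (hK : ∀ ψ ∈ K, H *ᵥ ψ ∈ K) (v : n → ℂ) (hv : v ∈ K) (k : ℕ) :
    (H ^ k) *ᵥ v ∈ K := by
  induction k with
  | zero => simpa using hv
  | succ k ih =>
    rw [pow_succ', ← Matrix.mulVec_mulVec]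
    exact hK _ ih

theorem krylov_aeval_mem {n : Type*} [Fintype n] [DecidableEq n] (H : Matrix n n ℂ)
    (K : Submodule ℂ (n → ℂ)) (hK : ∀ ψ ∈ K, H *ᵥ ψ ∈ K) (v : n → ℂ) (hv : v ∈ K) (f : ℂ[X]) :
    (aeval H f) *ᵥ v ∈ K := by
  induction f using Polynomial.induction_on' with
  | add p q hp hq =>
    rw [map_add, Matrix.add_mulVec]
    exact K.add_mem hp hq
  | monomial k a =>
    rw [aeval_monomial, Algebra.algebraMap_eq_smul_one, smul_mul_assoc, one_mul,
      Matrix.smul_mulVec]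
    exact K.smul_mem _ (krylov_pow_mem H K hK v hv k)

theorem krylov_vecMul_pow {n : Type*} [Fintype n] [DecidableEq n] (H : Matrix n n ℂ)
    (E : ℂ) (w : n → ℂ) (hw : w ᵥ* H = E • w) (k : ℕ) : w ᵥ* (H ^ k) = E ^ k • w := by
  induction k with
  | zero => simp
  | succ k ih =>
    rw [pow_succ, ← Matrix.vecMul_vecMul, ih, Matrix.smul_vecMul, hw, smul_smul, pow_succ]

theorem krylov_vecMul_aeval {n : Type*} [Fintype n] [DecidableEq n] (H : Matrix n n ℂ)
    (E : ℂ) (w : n → ℂ) (hw : w ᵥ* H = E • w) (f : ℂ[X]) :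
    w ᵥ* (aeval H f) = f.eval E • w := by
  induction f using Polynomial.induction_on' with
  | add p q hp hq =>
    rw [map_add, Matrix.vecMul_add, hp, hq, eval_add, add_smul]
  | monomial k a =>
    rw [aeval_monomial, Algebra.algebraMap_eq_smul_one, smul_mul_assoc, one_mul,
      Matrix.vecMul_smul, krylov_vecMul_pow H E w hw, eval_monomial, smul_smul]

theorem krylov {n : Type*} [Fintype n] [DecidableEq n] (H : Matrix n n ℂ) (hH : H.IsHermitian)
    (E : ℝ) (Ω : n → ℂ) (heig : H *ᵥ Ω = (E : ℂ) • Ω)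
    (hsimple : ∀ ψ : n → ℂ, H *ᵥ ψ = (E : ℂ) • ψ → ∃ c : ℂ, ψ = c • Ω)
    (K : Submodule ℂ (n → ℂ)) (hK : ∀ ψ ∈ K, H *ᵥ ψ ∈ K) (v : n → ℂ) (hv : v ∈ K)
    (hov : star Ω ⬝ᵥ v ≠ 0) : Ω ∈ K := by
  have hw : star Ω ᵥ* H = (E : ℂ) • star Ω := by
    have h1 := congrArg star heig
    rw [Matrix.star_mulVec, hH.eq] at h1
    rw [h1]
    ext i
    simp
  have hb : ∀ f : ℂ[X], star Ω ⬝ᵥ ((aeval H f) *ᵥ v) = f.eval (E : ℂ) * (star Ω ⬝ᵥ v) := by
    intro f
    rw [Matrix.dotProduct_mulVec, krylov_vecMul_aeval H (E : ℂ) (star Ω) hw f, smul_dotProduct,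
      smul_eq_mul]
  have key : ∀ N : ℕ, ∀ f : ℂ[X], f ≠ 0 → f.natDegree ≤ N → (aeval H f) *ᵥ v = 0 → Ω ∈ K := by
    intro N
    induction N with
    | zero =>
      intro f hf hdeg h0
      exfalso
      have h1 := hb f
      rw [h0, dotProduct_zero] at h1
      have h2 : f.eval (E : ℂ) = 0 := by
        rcases mul_eq_zero.1 h1.symm with h | h
        · exact h
        · exact absurd h hov
      have h3 : f = C (f.coeff 0) := eq_C_of_natDegree_le_zero hdeg
      rw [h3, eval_C] at h2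
      rw [h2, C_0] at h3
      exact hf h3
    | succ N ih =>
      intro f hf hdeg h0
      have h1 := hb f
      rw [h0, dotProduct_zero] at h1
      have h2 : f.eval (E : ℂ) = 0 := by
        rcases mul_eq_zero.1 h1.symm with h | h
        · exact h
        · exact absurd h hov
      obtain ⟨g, hg⟩ := dvd_iff_isRoot.2 h2
      have hg0 : g ≠ 0 := by
        rintro rfl
        exact hf (by rw [hg, mul_zero])
      have hdegg : g.natDegree ≤ N := by
        have h4 : f.natDegree = (X - C (E : ℂ)).natDegree + g.natDegree := by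
          rw [hg]
          exact natDegree_mul (X_sub_C_ne_zero _) hg0
        rw [natDegree_X_sub_C] at h4
        omega
      have hψ : H *ᵥ ((aeval H g) *ᵥ v) = (E : ℂ) • ((aeval H g) *ᵥ v) := by
        have h5 : (aeval H f) *ᵥ v =
            H *ᵥ ((aeval H g) *ᵥ v) - (E : ℂ) • ((aeval H g) *ᵥ v) := by
          rw [hg, map_mul, map_sub, aeval_X, aeval_C, ← Matrix.mulVec_mulVec, Matrix.sub_mulVec,
            Algebra.algebraMap_eq_smul_one, Matrix.smul_mulVec, Matrix.one_mulVec]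
        rw [h0] at h5
        exact (sub_eq_zero.1 h5.symm)
      obtain ⟨c, hc⟩ := hsimple _ hψ
      by_cases hc0 : c = 0
      · refine ih g hg0 hdegg ?_
        rw [hc, hc0, zero_smul]
      · have h6 : Ω = c⁻¹ • ((aeval H g) *ᵥ v) := by
          rw [hc, smul_smul, inv_mul_cancel₀ hc0, one_smul]
        rw [h6]
        exact K.smul_mem _ (krylov_aeval_mem H K hK v hv g)
  refine key _ H.charpoly (Matrix.charpoly_monic H).ne_zero le_rfl ?_
  rw [Matrix.aeval_self_charpoly, Matrix.zero_mulVec]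

end Vale.Agent.P356
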