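import Mathlib

/-! # P356 leaf L2: a nonzero functional does not vanish on all eigenvectors of a Hermitian matrix -/

namespace Vale.Agent.P356

open scoped BigOperators Matrix

theorem exists_eigenvector_pairing {α : Type*} [Fintype α] [DecidableEq α] (k : Matrix α α ℂ)
    (hk : k.IsHermitian) (φ : α → ℂ) (hφ : φ ≠ 0) :
    ∃ (u : α → ℂ) (μ : ℂ), k *ᵥ u = μ • u ∧ φ ⬝ᵥ u ≠ 0 := by
  by_contra hcon
  push Not at hcon
  apply hφ
  have h0 : ∀ j : α, φ ⬝ᵥ (⇑(hk.eigenvectorBasis j) : α → ℂ) = 0 := by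
    intro j
    apply hcon _ ((hk.eigenvalues j : ℝ) : ℂ)
    have := hk.mulVec_eigenvectorBasis j
    rw [this]
    funext i
    simp
  have h1 : φ ᵥ* (hk.eigenvectorUnitary : Matrix α α ℂ) = 0 := by
    funext j
    have := h0 j
    rw [← Matrix.IsHermitian.eigenvectorUnitary_col_eq] at this
    simpa [Matrix.vecMul, Matrix.col] using this
  have h2 : (hk.eigenvectorUnitary : Matrix α α ℂ) * star (hk.eigenvectorUnitary : Matrix α α ℂ) = 1 :=
    Unitary.coe_mul_star_self _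
  calc φ = φ ᵥ* (1 : Matrix α α ℂ) := (Matrix.vecMul_one φ).symm
    _ = φ ᵥ* ((hk.eigenvectorUnitary : Matrix α α ℂ) * star (hk.eigenvectorUnitary : Matrix α α ℂ)) := by
        rw [h2]
    _ = (φ ᵥ* (hk.eigenvectorUnitary : Matrix α α ℂ)) ᵥ* star (hk.eigenvectorUnitary : Matrix α α ℂ) := by
        rw [Matrix.vecMul_vecMul]
    _ = 0 := by rw [h1, Matrix.zero_vecMul]

end Vale.Agent.P356
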