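import Vale.Agent.Lib.P356.Rank
import Vale.Agent.Lib.P356.Krylov
import Vale.Agent.Lib.P356.Spectral

/-! # P356: the abstract Schmidt-rank bound -/

namespace Vale.Agent.P356

open scoped BigOperators Matrix

set_option linter.unusedSectionVars false

variable {V : Type*} [Fintype V] [DecidableEq V] {q : ℕ}

/-- the invariant subspace used in the proof -/
def Kspace (A D : Finset V) (u : ({x // x ∈ A} → Fin q) → ℂ)
    (H1 : Matrix (V → Fin q) (V → Fin q) ℂ) (μ : ℂ) : Submodule ℂ ((V → Fin q) → ℂ) where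
  carrier := {ψ | H1 *ᵥ ψ = μ • ψ ∧
    ∃ Y : ({x // x ∈ A \ D} → Fin q) → (V → Fin q) → ℂ, (∀ g, DInv D (Y g)) ∧
      ψ = fun σ => ∑ g, wfun A (A \ D) u g σ * Y g σ}
  add_mem' := by
    rintro ψ ψ' ⟨h1, Y, hY, rfl⟩ ⟨h2, Y', hY', rfl⟩
    refine ⟨by rw [Matrix.mulVec_add, h1, h2, smul_add], fun g σ => Y g σ + Y' g σ, ?_, ?_⟩
    · intro g σ σ' h
      simp only
      rw [hY g σ σ' h, hY' g σ σ' h]
    · funext σ
      simp [mul_add, Finset.sum_add_distrib]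
  zero_mem' := ⟨by simp, fun _ _ => 0, fun g σ σ' _ => rfl, by funext σ; simp⟩
  smul_mem' := by
    rintro c ψ ⟨h1, Y, hY, rfl⟩
    refine ⟨by rw [Matrix.mulVec_smul, h1, smul_comm], fun g σ => c * Y g σ, ?_, ?_⟩
    · intro g σ σ' h
      simp only
      rw [hY g σ σ' h]
    · funext σ
      simp [Finset.mul_sum, mul_left_comm]

theorem Kspace_invariant (A D : Finset V) (u : ({x // x ∈ A} → Fin q) → ℂ)
    (H1 G : Matrix (V → Fin q) (V → Fin q) ℂ) (μ : ℂ) (hG : ActsOn Dᶜ G) (hcomm : Commute H1 G)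
    (ψ : (V → Fin q) → ℂ) (hψ : ψ ∈ Kspace A D u H1 μ) :
    (H1 + G) *ᵥ ψ ∈ Kspace A D u H1 μ := by
  have hGψ : G *ᵥ ψ ∈ Kspace A D u H1 μ := by
    obtain ⟨h1, Y, hY, hform⟩ := hψ
    refine ⟨?_, fun g => G *ᵥ Y g, fun g => (hY g).mulVec hG, ?_⟩
    · rw [Matrix.mulVec_mulVec, hcomm.eq, ← Matrix.mulVec_mulVec, h1, Matrix.mulVec_smul]
    · have h2 : ψ = ∑ g, (fun σ => wfun A (A \ D) u g σ * Y g σ) := by
        rw [hform]
        funext σ
        simp [Finset.sum_apply]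
      rw [h2, Matrix.mulVec_sum]
      funext σ
      rw [Finset.sum_apply]
      refine Finset.sum_congr rfl (fun g _ => ?_)
      rw [mulVec_mul_of_dep hG _ _ (fun σ σ' h => wfun_dep A D u g σ σ' h)]
  rw [Matrix.add_mulVec, hψ.1]
  exact add_mem (Submodule.smul_mem _ _ hψ) hGψ

theorem rank_cut_le (A D : Finset V) (hDA : D ⊆ A) (H1 G : Matrix (V → Fin q) (V → Fin q) ℂ)
    (hH1 : H1.IsHermitian) (hG : G.IsHermitian)
    (h1 : ∀ σ τ : V → Fin q, (∃ x, x ∉ A ∧ σ x ≠ τ x) → H1 σ τ = 0)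
    (hGact : ActsOn Dᶜ G) (hcomm : Commute H1 G)
    (E : ℝ) (Ω : (V → Fin q) → ℂ) (hΩ : Ω ≠ 0) (heig : (H1 + G) *ᵥ Ω = (E : ℂ) • Ω)
    (hsimple : ∀ ψ : (V → Fin q) → ℂ, (H1 + G) *ᵥ ψ = (E : ℂ) • ψ → ∃ c : ℂ, ψ = c • Ω) :
    (cutMatrix A Ω).rank ≤ q ^ (2 * (A \ D).card) := by
  obtain ⟨σ0, hσ0⟩ : ∃ σ0, Ω σ0 ≠ 0 := by
    by_contra h
    push_neg at h
    exact hΩ (funext h)
  have hk : (block A H1 (resOut A σ0)).IsHermitian := hH1.submatrix _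
  have hφ : (fun a => star (Ω (glue A a (resOut A σ0)))) ≠ 0 := by
    intro h
    have h2 := congrFun h (resIn A σ0)
    simp only [glue_res, Pi.zero_apply, star_eq_zero] at h2
    exact hσ0 h2
  obtain ⟨u, μ, hu, hpair⟩ := exists_eigenvector_pairing _ hk _ hφ
  have hv1 := mulVec_prodVec A H1 h1 (resOut A σ0) u μ hu
  have hvK : prodVec A u (resOut A σ0) ∈ Kspace A D u H1 μ :=
    ⟨hv1, _, fun g => DInv_indicator A D hDA g (resOut A σ0), prodVec_eq_sum A D u (resOut A σ0)⟩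
  have hov : star Ω ⬝ᵥ prodVec A u (resOut A σ0) ≠ 0 := by
    rw [star_dotProduct_prodVec]
    exact hpair
  have hΩK := krylov (H1 + G) (hH1.add hG) E Ω heig hsimple (Kspace A D u H1 μ)
    (fun ψ hψ => Kspace_invariant A D u H1 G μ hGact hcomm ψ hψ) _ hvK hov
  obtain ⟨-, Y, hY, hΩeq⟩ := hΩK
  exact rank_cutMatrix_le A D hDA u Y hY Ω hΩeq

end Vale.Agent.P356
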