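import Mathlib

/-!
# P356: definitions (spin systems on a finite set of sites, reduced density matrix, entropy)
-/

namespace Vale.Agent.P356

open scoped BigOperators Matrix

/-- The sites of `Λ_L = {1,…,L}²`. -/
abbrev Site (L : ℕ) := Fin L × Fin L

/-- The `ℓ¹` distance on `Λ_L`. -/
def dist1 {L : ℕ} (x y : Site L) : ℕ :=
  Nat.dist (x.1 : ℕ) (y.1 : ℕ) + Nat.dist (x.2 : ℕ) (y.2 : ℕ)

/-- The edge boundary of `A`, each pair `{x,y}` listed once as `(x,y)` with `x ∈ A`, `y ∉ A`. -/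
def edgeBoundary {L : ℕ} (A : Finset (Site L)) : Finset (Site L × Site L) :=
  Finset.univ.filter (fun e => e.1 ∈ A ∧ e.2 ∉ A ∧ dist1 e.1 e.2 = 1)

section general

variable {V : Type*} [Fintype V] [DecidableEq V] {q : ℕ}

/-- `h` (a matrix in the product basis indexed by the configurations `V → Fin q`, i.e. an operator
on `⨂_{x ∈ V} ℂ^q`) acts on the tensor factors in `X` and as the identity elsewhere. -/
def ActsOn (X : Finset V) (h : Matrix (V → Fin q) (V → Fin q) ℂ) : Prop :=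
  (∀ σ τ, (∃ x, x ∉ X ∧ σ x ≠ τ x) → h σ τ = 0) ∧
  (∀ σ τ σ' τ', (∀ x, x ∉ X → σ x = τ x) → (∀ x, x ∉ X → σ' x = τ' x) →
    (∀ x, x ∈ X → σ x = σ' x) → (∀ x, x ∈ X → τ x = τ' x) → h σ τ = h σ' τ')

/-- The configuration on `V` that is `a` on `A` and `b` off `A`. -/
def glue (A : Finset V) (a : {x // x ∈ A} → Fin q) (b : {x // x ∉ A} → Fin q) : V → Fin q :=
  fun x => if hx : x ∈ A then a ⟨x, hx⟩ else b ⟨x, hx⟩

/-- The coefficient matrix of the vector `Ω` with respect to the cut `A | Aᶜ`. -/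
def cutMatrix (A : Finset V) (Ω : (V → Fin q) → ℂ) :
    Matrix ({x // x ∈ A} → Fin q) ({x // x ∉ A} → Fin q) ℂ :=
  fun a b => Ω (glue A a b)

/-- The reduced density matrix `ρ_A = Tr_{Aᶜ} |Ω⟩⟨Ω|`:
`ρ_A(a,a') = ∑_b Ω(a,b) * conj Ω(a',b)`. -/
noncomputable def reduced (A : Finset V) (Ω : (V → Fin q) → ℂ) :
    Matrix ({x // x ∈ A} → Fin q) ({x // x ∈ A} → Fin q) ℂ :=
  fun a a' => ∑ b : {x // x ∉ A} → Fin q, Ω (glue A a b) * star (Ω (glue A a' b))

theorem reduced_eq (A : Finset V) (Ω : (V → Fin q) → ℂ) :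
    reduced A Ω = cutMatrix A Ω * (cutMatrix A Ω)ᴴ := by
  ext a a'
  simp [reduced, cutMatrix, Matrix.mul_apply, Matrix.conjTranspose_apply]

theorem reduced_isHermitian (A : Finset V) (Ω : (V → Fin q) → ℂ) :
    (reduced A Ω).IsHermitian := by
  rw [reduced_eq]
  exact Matrix.isHermitian_mul_conjTranspose_self _

end general

/-- von Neumann entropy `-Tr ρ log ρ = ∑ -λ log λ` over the eigenvalues of the Hermitian
matrix `ρ` (natural logarithm, `0 log 0 = 0`). -/
noncomputable def entropy {ι : Type*} [Fintype ι] [DecidableEq ι] (ρ : Matrix ι ι ℂ)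
    (hρ : ρ.IsHermitian) : ℝ :=
  ∑ i, Real.negMulLog (hρ.eigenvalues i)

end Vale.Agent.P356
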