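import Vale.Agent.Lib.P356.Defs

/-! # P356 leaf L4: entropy of a density matrix is at most the logarithm of its rank -/

namespace Vale.Agent.P356

open scoped BigOperators Matrix ComplexOrder

theorem entropy_le_log_of_rank_le {ι : Type*} [Fintype ι] [DecidableEq ι] (ρ : Matrix ι ι ℂ)
    (hρ : ρ.PosSemidef) (htr : ρ.trace = 1) (N : ℕ) (hN : ρ.rank ≤ N) :
    entropy ρ hρ.1 ≤ Real.log N := by
  classical
  unfold entropy
  obtain ⟨l, hl⟩ : ∃ l : ι → ℝ, l = hρ.1.eigenvalues := ⟨_, rfl⟩
  rw [← hl]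
  have hnn : ∀ i, 0 ≤ l i := by
    intro i
    rw [hl]
    exact hρ.eigenvalues_nonneg i
  have hsum : ∑ i, l i = 1 := by
    have h1 := hρ.1.trace_eq_sum_eigenvalues
    rw [htr, ← hl] at h1
    have h2 : (RCLike.ofReal (∑ i, l i) : ℂ) = RCLike.ofReal (1 : ℝ) := by
      rw [RCLike.ofReal_sum, RCLike.ofReal_one]
      exact h1.symm
    exact RCLike.ofReal_injective h2
  obtain ⟨S, hS⟩ : ∃ S : Finset ι, S = Finset.univ.filter (fun i => l i ≠ 0) := ⟨_, rfl⟩
  have hcard : S.card = ρ.rank := by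
    rw [hρ.1.rank_eq_card_non_zero_eigs, Fintype.card_subtype, hS, hl]
  have hsumS : ∑ i ∈ S, l i = 1 := by
    rw [← hsum, hS, Finset.sum_filter_ne_zero]
  have hSne : S.Nonempty := by
    by_contra h
    rw [Finset.not_nonempty_iff_eq_empty] at h
    rw [h] at hsumS
    simp at hsumS
  have hr0 : 0 < S.card := Finset.card_pos.mpr hSne
  obtain ⟨r, hr⟩ : ∃ r : ℝ, r = (S.card : ℝ) := ⟨_, rfl⟩
  have hrpos : 0 < r := by rw [hr]; exact_mod_cast hr0
  have hent : ∑ i, Real.negMulLog (l i) = ∑ i ∈ S, Real.negMulLog (l i) := by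
    rw [hS, Finset.sum_filter]
    refine Finset.sum_congr rfl fun i _ => ?_
    by_cases h : l i = 0
    · simp [h]
    · simp [h]
  rw [hent]
  have hterm : ∀ i ∈ S, Real.negMulLog (l i) ≤ l i * Real.log r + (1 / r - l i) := by
    intro i hi
    rw [hS] at hi
    have hne : l i ≠ 0 := (Finset.mem_filter.mp hi).2
    have hpos : 0 < l i := lt_of_le_of_ne (hnn i) (Ne.symm hne)
    have h1 := Real.log_le_sub_one_of_pos (x := 1 / (l i * r)) (by positivity)
    rw [Real.log_div one_ne_zero (by positivity), Real.log_one,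
      Real.log_mul hne hrpos.ne'] at h1
    have h2 := mul_le_mul_of_nonneg_left h1 hpos.le
    have h3 : l i * (1 / (l i * r) - 1) = 1 / r - l i := by field_simp
    rw [h3] at h2
    simp only [Real.negMulLog]
    nlinarith
  calc ∑ i ∈ S, Real.negMulLog (l i)
      ≤ ∑ i ∈ S, (l i * Real.log r + (1 / r - l i)) := Finset.sum_le_sum hterm
    _ = Real.log r := by
      rw [Finset.sum_add_distrib, ← Finset.sum_mul, Finset.sum_sub_distrib, hsumS,
        Finset.sum_const, nsmul_eq_mul, ← hr]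
      field_simp
      ring
    _ ≤ Real.log N := by
      apply Real.log_le_log hrpos
      rw [hr]
      have : S.card ≤ N := hcard ▸ hN
      exact_mod_cast this

end Vale.Agent.P356
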