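import Mathlib

/-! # P356 leaf L10: a spectral gap above `E` makes the eigenvalue `E` simple -/

namespace Vale.Agent.P356

open scoped BigOperators Matrix ComplexOrder

theorem simple_of_gap {n : Type*} [Fintype n] [DecidableEq n] (H : Matrix n n ℂ) (E Δ : ℝ)
    (hΔ : 0 < Δ) (Ω : n → ℂ) (hnorm : ∑ σ, ‖Ω σ‖ ^ 2 = 1)
    (hgap : (H - (E : ℂ) • (1 : Matrix n n ℂ)
      - (Δ : ℂ) • ((1 : Matrix n n ℂ) - Matrix.vecMulVec Ω (star Ω))).PosSemidef)
    (ψ : n → ℂ) (hψ : H *ᵥ ψ = (E : ℂ) • ψ) : ∃ c : ℂ, ψ = c • Ω := by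
  set c : ℂ := star Ω ⬝ᵥ ψ with hc
  set w : n → ℂ := ψ - c • Ω with hw
  have hΩ : star Ω ⬝ᵥ Ω = 1 := by
    have h1 : star Ω ⬝ᵥ Ω = ((∑ σ, ‖Ω σ‖ ^ 2 : ℝ) : ℂ) := by
      simp only [dotProduct, Pi.star_apply, Complex.ofReal_sum, Complex.ofReal_pow]
      apply Finset.sum_congr rfl
      intro σ _
      exact Complex.conj_mul' (Ω σ)
    rw [h1, hnorm]
    simp
  have hv : Matrix.vecMulVec Ω (star Ω) *ᵥ ψ = c • Ω := by
    ext σ
    simp only [Matrix.mulVec, Matrix.vecMulVec_apply, dotProduct, Pi.smul_apply, smul_eq_mul, hc,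
      Finset.sum_mul]
    apply Finset.sum_congr rfl
    intro τ _
    ring
  have hM : (H - (E : ℂ) • (1 : Matrix n n ℂ)
      - (Δ : ℂ) • ((1 : Matrix n n ℂ) - Matrix.vecMulVec Ω (star Ω))) *ᵥ ψ = (-(Δ : ℂ)) • w := by
    rw [Matrix.sub_mulVec, Matrix.sub_mulVec, Matrix.smul_mulVec, Matrix.smul_mulVec,
      Matrix.sub_mulVec, Matrix.one_mulVec, hv, hψ, sub_self, zero_sub, neg_smul]
  have hpos := (Matrix.posSemidef_iff_dotProduct_mulVec.1 hgap).2 ψ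
  have horth : star (c • Ω) ⬝ᵥ w = 0 := by
    rw [hw, dotProduct_sub, star_smul, smul_dotProduct, smul_dotProduct, dotProduct_smul, hΩ, ← hc]
    simp
  have hsw : star ψ ⬝ᵥ w = star w ⬝ᵥ w := by
    have : star ψ = star w + star (c • Ω) := by
      rw [← star_add, hw, sub_add_cancel]
    rw [this, add_dotProduct, horth, add_zero]
  rw [hM, dotProduct_smul, hsw, smul_eq_mul] at hpos
  have hww : (0 : ℂ) ≤ star w ⬝ᵥ w := dotProduct_star_self_nonneg w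
  have hΔc : (0 : ℂ) < (Δ : ℂ) := by exact_mod_cast hΔ
  have hle : star w ⬝ᵥ w ≤ 0 := by
    have h1 : (Δ : ℂ) * (star w ⬝ᵥ w) ≤ 0 := by
      have := neg_nonneg.1 (by simpa [neg_mul] using hpos : (0 : ℂ) ≤ -((Δ : ℂ) * (star w ⬝ᵥ w)))
      exact this
    by_contra hcon
    have hlt : 0 < star w ⬝ᵥ w := lt_of_le_of_ne hww (fun h => hcon (h ▸ le_refl _))
    exact absurd h1 (not_le_of_gt (mul_pos hΔc hlt))
  have hzero : star w ⬝ᵥ w = 0 := le_antisymm hle hww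
  have hw0 : w = 0 := dotProduct_star_self_eq_zero.1 hzero
  refine ⟨c, ?_⟩
  have := sub_eq_zero.1 (hw ▸ hw0 : ψ - c • Ω = 0)
  exact this

end Vale.Agent.P356
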