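import Vale.Agent.Lib.P356.Defs

/-! # P356 leaf L5: the inner `R`-collar of `A` has at most `(2R+1)² |∂A|` points -/

namespace Vale.Agent.P356

open scoped BigOperators

theorem dist1_triangle {L : ℕ} (x y z : Site L) : dist1 x z ≤ dist1 x y + dist1 y z := by
  unfold dist1 Nat.dist
  omega

theorem dist1_self {L : ℕ} (x : Site L) : dist1 x x = 0 := by
  unfold dist1 Nat.dist
  omega

theorem eq_of_dist1_eq_zero {L : ℕ} {x y : Site L} (h : dist1 x y = 0) : x = y := by
  unfold dist1 Nat.dist at h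
  apply Prod.ext
  · apply Fin.ext; omega
  · apply Fin.ext; omega

/-- one step from `x` towards `y` -/
theorem exists_step {L : ℕ} (x y : Site L) (hxy : x ≠ y) :
    ∃ z : Site L, dist1 x z = 1 ∧ dist1 z y + 1 = dist1 x y := by
  obtain ⟨⟨x1, hx1⟩, ⟨x2, hx2⟩⟩ := x
  obtain ⟨⟨y1, hy1⟩, ⟨y2, hy2⟩⟩ := y
  by_cases h1 : x1 = y1
  · have h2 : x2 ≠ y2 := by
      intro h2
      apply hxy
      subst h1; subst h2; rfl
    rcases Nat.lt_or_gt_of_ne h2 with h | h
    · refine ⟨(⟨x1, hx1⟩, ⟨x2 + 1, by omega⟩), ?_, ?_⟩ <;>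
      · simp only [dist1, Nat.dist]
        omega
    · refine ⟨(⟨x1, hx1⟩, ⟨x2 - 1, by omega⟩), ?_, ?_⟩ <;>
      · simp only [dist1, Nat.dist]
        omega
  · rcases Nat.lt_or_gt_of_ne h1 with h | h
    · refine ⟨(⟨x1 + 1, by omega⟩, ⟨x2, hx2⟩), ?_, ?_⟩ <;>
      · simp only [dist1, Nat.dist]
        omega
    · refine ⟨(⟨x1 - 1, by omega⟩, ⟨x2, hx2⟩), ?_, ?_⟩ <;>
      · simp only [dist1, Nat.dist]
        omega

theorem exists_boundary_edge {L : ℕ} (A : Finset (Site L)) (n : ℕ) :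
    ∀ x ∈ A, ∀ y, y ∉ A → dist1 x y ≤ n → ∃ e ∈ edgeBoundary A, dist1 x e.1 ≤ n := by
  induction n with
  | zero =>
    intro x hx y hy h
    have : x = y := eq_of_dist1_eq_zero (Nat.le_zero.mp h)
    exact absurd (this ▸ hx) hy
  | succ n ih =>
    intro x hx y hy h
    have hxy : x ≠ y := fun h' => hy (h' ▸ hx)
    obtain ⟨z, hz1, hz2⟩ := exists_step x y hxy
    by_cases hzA : z ∈ A
    · obtain ⟨e, he, hd⟩ := ih z hzA y hy (by omega)
      refine ⟨e, he, ?_⟩
      have := dist1_triangle x z e.1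
      omega
    · refine ⟨(x, z), ?_, ?_⟩
      · simp only [edgeBoundary, Finset.mem_filter, Finset.mem_univ, true_and]
        exact ⟨hx, hzA, hz1⟩
      · show dist1 x x ≤ n + 1
        rw [dist1_self]
        omega

theorem card_line_le {L : ℕ} (R : ℕ) (c : ℕ) :
    (Finset.univ.filter (fun i : Fin L => Nat.dist (i : ℕ) c ≤ R)).card ≤ 2 * R + 1 := by
  have h1 : (Finset.univ.filter (fun i : Fin L => Nat.dist (i : ℕ) c ≤ R)).card
      ≤ (Finset.Icc (c - R) (c + R)).card := by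
    apply Finset.card_le_card_of_injOn (fun i : Fin L => (i : ℕ))
    · intro i hi
      have hi' : Nat.dist (i : ℕ) c ≤ R := by simpa using hi
      unfold Nat.dist at hi'
      simp only [Finset.coe_Icc, Set.mem_Icc]
      omega
    · intro i _ j _ hij
      exact Fin.ext hij
  have h2 : (Finset.Icc (c - R) (c + R)).card ≤ 2 * R + 1 := by
    rw [Nat.card_Icc]
    omega
  exact h1.trans h2

theorem card_ball_le {L : ℕ} (R : ℕ) (z : Site L) :
    (Finset.univ.filter (fun x : Site L => dist1 x z ≤ R)).card ≤ (2 * R + 1) ^ 2 := by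
  have hsub : Finset.univ.filter (fun x : Site L => dist1 x z ≤ R) ⊆
      (Finset.univ.filter (fun i : Fin L => Nat.dist (i : ℕ) (z.1 : ℕ) ≤ R)) ×ˢ
        (Finset.univ.filter (fun i : Fin L => Nat.dist (i : ℕ) (z.2 : ℕ) ≤ R)) := by
    intro x hx
    have hx' : dist1 x z ≤ R := by simpa using hx
    unfold dist1 at hx'
    simp only [Finset.mem_product, Finset.mem_filter, Finset.mem_univ, true_and]
    constructor <;> omega
  calc (Finset.univ.filter (fun x : Site L => dist1 x z ≤ R)).card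
      ≤ _ := Finset.card_le_card hsub
    _ = _ * _ := Finset.card_product _ _
    _ ≤ (2 * R + 1) * (2 * R + 1) := Nat.mul_le_mul (card_line_le R _) (card_line_le R _)
    _ = (2 * R + 1) ^ 2 := by ring

theorem card_collar_le {L : ℕ} (R : ℕ) (A : Finset (Site L)) :
    (A.filter (fun x => ∃ y, y ∉ A ∧ dist1 x y ≤ R)).card
      ≤ (2 * R + 1) ^ 2 * (edgeBoundary A).card := by
  classical
  have hsub : A.filter (fun x => ∃ y, y ∉ A ∧ dist1 x y ≤ R) ⊆
      (edgeBoundary A).biUnion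
        (fun e => Finset.univ.filter (fun x : Site L => dist1 x e.1 ≤ R)) := by
    intro x hx
    obtain ⟨hxA, y, hy, hd⟩ := Finset.mem_filter.mp hx
    obtain ⟨e, he, hde⟩ := exists_boundary_edge A R x hxA y hy hd
    simp only [Finset.mem_biUnion, Finset.mem_filter, Finset.mem_univ, true_and]
    exact ⟨e, he, hde⟩
  calc (A.filter (fun x => ∃ y, y ∉ A ∧ dist1 x y ≤ R)).card
      ≤ _ := Finset.card_le_card hsub
    _ ≤ (edgeBoundary A).card * (2 * R + 1) ^ 2 :=
        Finset.card_biUnion_le_card_mul _ _ _ (fun e _ => card_ball_le R e.1)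
    _ = (2 * R + 1) ^ 2 * (edgeBoundary A).card := Nat.mul_comm _ _

end Vale.Agent.P356
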