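import Vale.Agent.Lib.P356.Core
import Vale.Agent.Lib.P356.EntropyRank
import Vale.Agent.Lib.P356.Lattice

/-! # P356: the area law when the terms inside `A` commute with the other terms -/

namespace Vale.Agent.P356

open scoped BigOperators Matrix ComplexOrder

set_option linter.unusedSectionVars false

theorem isHermitian_sum {n ι : Type*} (s : Finset ι) (h : ι → Matrix n n ℂ)
    (hh : ∀ i ∈ s, (h i).IsHermitian) : (∑ i ∈ s, h i).IsHermitian := by
  unfold Matrix.IsHermitian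
  rw [Matrix.conjTranspose_sum]
  exact Finset.sum_congr rfl (fun i hi => hh i hi)

theorem trace_reduced {V : Type*} [Fintype V] [DecidableEq V] {q : ℕ} (A : Finset V)
    (Ω : (V → Fin q) → ℂ) (hnorm : ∑ σ, ‖Ω σ‖ ^ 2 = 1) : (reduced A Ω).trace = 1 := by
  have h1 : (reduced A Ω).trace = ∑ σ, ((‖Ω σ‖ ^ 2 : ℝ) : ℂ) := by
    rw [sum_conf A]
    simp only [Matrix.trace, Matrix.diag, reduced]
    refine Finset.sum_congr rfl (fun a _ => Finset.sum_congr rfl (fun b _ => ?_))
    rw [Complex.star_def, Complex.mul_conj, Complex.normSq_eq_norm_sq]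
  rw [h1, ← Complex.ofReal_sum, hnorm, Complex.ofReal_one]

theorem area_law (L q R : ℕ)
    (h : Finset (Site L) → Matrix (Site L → Fin q) (Site L → Fin q) ℂ)
    (hherm : ∀ X, (h X).IsHermitian) (hact : ∀ X, ActsOn X (h X))
    (hrange : ∀ X, h X ≠ 0 → ∀ x ∈ X, ∀ y ∈ X, dist1 x y ≤ R)
    (E : ℝ) (Ω : (Site L → Fin q) → ℂ) (hnorm : ∑ σ, ‖Ω σ‖ ^ 2 = 1)
    (heig : (∑ X, h X) *ᵥ Ω = (E : ℂ) • Ω)
    (hsimple : ∀ ψ : (Site L → Fin q) → ℂ, (∑ X, h X) *ᵥ ψ = (E : ℂ) • ψ → ∃ c : ℂ, ψ = c • Ω)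
    (A : Finset (Site L))
    (hcomm : ∀ X Y, X ⊆ A → ¬ Y ⊆ A → Commute (h X) (h Y)) :
    entropy (reduced A Ω) (reduced_isHermitian A Ω)
      ≤ 2 * (2 * (R : ℝ) + 1) ^ 2 * Real.log q * ((edgeBoundary A).card : ℝ) := by
  classical
  set collar : Finset (Site L) := A.filter (fun x => ∃ y, y ∉ A ∧ dist1 x y ≤ R) with hcollar
  set D : Finset (Site L) := A \ collar with hD
  have hcA : collar ⊆ A := Finset.filter_subset _ _
  have hDA : D ⊆ A := Finset.sdiff_subset
  have hAD : A \ D = collar := Finset.sdiff_sdiff_eq_self hcA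
  set H1 := ∑ X ∈ Finset.univ.filter (fun X : Finset (Site L) => X ⊆ A), h X with hH1def
  set G := ∑ X ∈ Finset.univ.filter (fun X : Finset (Site L) => ¬ X ⊆ A), h X with hGdef
  have hsum : (∑ X, h X) = H1 + G := (Finset.sum_filter_add_sum_filter_not _ _ _).symm
  have hH1 : H1.IsHermitian := isHermitian_sum _ _ (fun X _ => hherm X)
  have hG : G.IsHermitian := isHermitian_sum _ _ (fun X _ => hherm X)
  have h1 : ∀ σ τ : Site L → Fin q, (∃ x, x ∉ A ∧ σ x ≠ τ x) → H1 σ τ = 0 := by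
    rintro σ τ ⟨x, hxA, hne⟩
    rw [hH1def, Matrix.sum_apply]
    refine Finset.sum_eq_zero (fun X hX => ?_)
    have hXA : X ⊆ A := (Finset.mem_filter.1 hX).2
    exact (hact X).1 σ τ ⟨x, fun hx => hxA (hXA hx), hne⟩
  have hGact : ActsOn Dᶜ G := by
    refine ActsOn.sum _ _ _ (fun X hX => ?_)
    have hXA : ¬ X ⊆ A := (Finset.mem_filter.1 hX).2
    by_cases h0 : h X = 0
    · rw [h0]; exact ActsOn.zero _
    · refine (hact X).mono ?_
      obtain ⟨y, hyX, hyA⟩ := Finset.not_subset.1 hXA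
      intro x hxX
      rw [Finset.mem_compl, hD, Finset.mem_sdiff]
      rintro ⟨hxA, hxc⟩
      exact hxc (Finset.mem_filter.2 ⟨hxA, y, hyA, hrange X h0 x hxX y hyX⟩)
  have hc : Commute H1 G := by
    refine Commute.sum_left _ _ _ (fun X hX => Commute.sum_right _ _ _ (fun Y hY => ?_))
    exact hcomm X Y (Finset.mem_filter.1 hX).2 (Finset.mem_filter.1 hY).2
  have hΩ : Ω ≠ 0 := by
    rintro rfl
    simp at hnorm
  rw [hsum] at heig hsimple
  have hrank := rank_cut_le A D hDA H1 G hH1 hG h1 hGact hc E Ω hΩ heig hsimple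
  rw [hAD] at hrank
  have hps : (reduced A Ω).PosSemidef := by
    rw [reduced_eq]
    exact Matrix.posSemidef_self_mul_conjTranspose _
  have hrank2 : (reduced A Ω).rank ≤ q ^ (2 * collar.card) := by
    rw [reduced_eq, Matrix.rank_self_mul_conjTranspose]
    exact hrank
  have hent := entropy_le_log_of_rank_le (reduced A Ω) hps (trace_reduced A Ω hnorm) _ hrank2
  have hcard : (collar.card : ℝ) ≤ (2 * (R : ℝ) + 1) ^ 2 * ((edgeBoundary A).card : ℝ) := by
    have := card_collar_le R A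
    exact_mod_cast this
  have hlog : 0 ≤ Real.log q := Real.log_natCast_nonneg q
  calc entropy (reduced A Ω) (reduced_isHermitian A Ω)
      ≤ Real.log ((q ^ (2 * collar.card) : ℕ) : ℝ) := hent
    _ = 2 * (collar.card : ℝ) * Real.log q := by
        push_cast
        rw [Real.log_pow]
        push_cast
        ring
    _ ≤ 2 * ((2 * (R : ℝ) + 1) ^ 2 * ((edgeBoundary A).card : ℝ)) * Real.log q := by
        gcongr
    _ = 2 * (2 * (R : ℝ) + 1) ^ 2 * Real.log q * ((edgeBoundary A).card : ℝ) := by ring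

end Vale.Agent.P356
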