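import Vale.Agent.Lib.P356.Vec

/-! # P356 leaf L7: the rank factorisation -/

namespace Vale.Agent.P356

open scoped BigOperators Matrix

set_option linter.unusedSectionVars false

variable {V : Type*} [Fintype V] [DecidableEq V] {q : ℕ}

/-- L7 -/
theorem rank_cutMatrix_le (A D : Finset V) (hDA : D ⊆ A) (u : ({x // x ∈ A} → Fin q) → ℂ)
    (Y : ({x // x ∈ A \ D} → Fin q) → (V → Fin q) → ℂ) (hY : ∀ g, DInv D (Y g))
    (Ω : (V → Fin q) → ℂ)
    (hΩ : Ω = fun σ => ∑ g : {x // x ∈ A \ D} → Fin q, wfun A (A \ D) u g σ * Y g σ) :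
    (cutMatrix A Ω).rank ≤ q ^ (2 * (A \ D).card) := by
  classical
  let r : ({x // x ∈ A} → Fin q) → ({x // x ∈ A \ D} → Fin q) :=
    fun a x => a ⟨x.1, (Finset.mem_sdiff.1 x.2).1⟩
  let U : ({x // x ∈ A \ D} → Fin q) → ({x // x ∈ A} → Fin q) → ℂ :=
    fun g a => u (fun x => if h : x.1 ∈ A \ D then g ⟨x.1, h⟩ else a x)
  let X : Matrix ({x // x ∈ A} → Fin q)
      (({x // x ∈ A \ D} → Fin q) × ({x // x ∈ A \ D} → Fin q)) ℂ :=
    fun a p => if r a = p.1 then U p.2 a else 0
  let Z : Matrix (({x // x ∈ A \ D} → Fin q) × ({x // x ∈ A \ D} → Fin q))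
      ({x // x ∉ A} → Fin q) ℂ :=
    fun p b => if h : ∃ a, r a = p.1 then Y p.2 (glue A h.choose b) else 0
  have hW : ∀ g a b, wfun A (A \ D) u g (glue A a b) = U g a := by
    intro g a b
    simp only [wfun, U]
    congr 1
    funext x
    by_cases hx : x.1 ∈ A \ D
    · simp only [resIn, dif_pos hx]
      rw [glue_of_mem _ _ _ hx]
    · simp only [resIn, dif_neg hx]
      rw [glue_of_not_mem _ _ _ hx]
      simp only [resOut]
      rw [glue_of_mem _ _ _ x.2]
  have hYr : ∀ g a a' b, r a = r a' → Y g (glue A a b) = Y g (glue A a' b) := by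
    intro g a a' b haa
    apply hY g
    intro x hx
    by_cases hxA : x ∈ A
    · rw [glue_of_mem A a b hxA, glue_of_mem A a' b hxA]
      exact congrFun haa ⟨x, Finset.mem_sdiff.2 ⟨hxA, hx⟩⟩
    · rw [glue_of_not_mem A a b hxA, glue_of_not_mem A a' b hxA]
  have hfac : cutMatrix A Ω = X * Z := by
    ext a b
    rw [Matrix.mul_apply, Fintype.sum_prod_type]
    simp only [cutMatrix, hΩ, X, Z]
    symm
    rw [Finset.sum_eq_single (r a)]
    · apply Finset.sum_congr rfl
      intro g _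
      have hex : ∃ a', r a' = r a := ⟨a, rfl⟩
      rw [if_pos rfl, dif_pos hex, hW, hYr g a hex.choose b hex.choose_spec.symm]
    · intro γ _ hγ
      apply Finset.sum_eq_zero
      intro g _
      rw [if_neg (Ne.symm hγ), zero_mul]
    · intro h
      exact absurd (Finset.mem_univ _) h
  rw [hfac]
  calc (X * Z).rank ≤ X.rank := Matrix.rank_mul_le_left X Z
    _ ≤ Fintype.card (({x // x ∈ A \ D} → Fin q) × ({x // x ∈ A \ D} → Fin q)) :=
        Matrix.rank_le_card_width X
    _ = q ^ (2 * (A \ D).card) := by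
        rw [Fintype.card_prod, Fintype.card_fun, Fintype.card_fin, Fintype.card_coe, two_mul,
          pow_add]

end Vale.Agent.P356
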