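import Vale.Agent.Lib.P356.Acts

/-! # P356 leaf L8: the product vector `u ⊗ e_{b0}` -/

namespace Vale.Agent.P356

open scoped BigOperators Matrix

set_option linter.unusedSectionVars false

variable {V : Type*} [Fintype V] [DecidableEq V] {q : ℕ}

/-- the product vector `u ⊗ e_{b0}` -/
def prodVec (A : Finset V) (u : ({x // x ∈ A} → Fin q) → ℂ) (b0 : {x // x ∉ A} → Fin q) :
    (V → Fin q) → ℂ :=
  fun σ => u (resIn A σ) * (if resOut A σ = b0 then 1 else 0)

/-- the block of `H1` in the sector where the configuration off `A` is `b0` -/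
def block (A : Finset V) (H1 : Matrix (V → Fin q) (V → Fin q) ℂ) (b0 : {x // x ∉ A} → Fin q) :
    Matrix ({x // x ∈ A} → Fin q) ({x // x ∈ A} → Fin q) ℂ :=
  H1.submatrix (fun a => glue A a b0) (fun a => glue A a b0)

/-- L8a -/
theorem mulVec_prodVec (A : Finset V) (H1 : Matrix (V → Fin q) (V → Fin q) ℂ)
    (h1 : ∀ σ τ : V → Fin q, (∃ x, x ∉ A ∧ σ x ≠ τ x) → H1 σ τ = 0)
    (b0 : {x // x ∉ A} → Fin q) (u : ({x // x ∈ A} → Fin q) → ℂ) (μ : ℂ)
    (hu : block A H1 b0 *ᵥ u = μ • u) :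
    H1 *ᵥ prodVec A u b0 = μ • prodVec A u b0 := by
  funext σ
  have e1 : (H1 *ᵥ prodVec A u b0) σ = ∑ a', H1 σ (glue A a' b0) * u a' := by
    simp only [Matrix.mulVec, dotProduct]
    rw [sum_conf A]
    refine Finset.sum_congr rfl fun a _ => ?_
    simp [prodVec]
  rw [e1]
  by_cases h : resOut A σ = b0
  · have hσ : glue A (resIn A σ) b0 = σ := by rw [← h]; simp
    have h2 := congrFun hu (resIn A σ)
    simp only [Matrix.mulVec, dotProduct, block, Matrix.submatrix_apply, Pi.smul_apply,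
      smul_eq_mul] at h2
    rw [hσ] at h2
    simp [prodVec, h, h2]
  · have h0 : ∀ a', H1 σ (glue A a' b0) = 0 := by
      intro a'
      apply h1
      by_contra hcon
      apply h
      funext x
      by_contra hx
      apply hcon
      refine ⟨x, x.2, ?_⟩
      rw [glue_of_not_mem A a' b0 x.2]
      exact hx
    simp [h0, prodVec, h]

/-- L8b -/
theorem star_dotProduct_prodVec (A : Finset V) (Ω : (V → Fin q) → ℂ)
    (b0 : {x // x ∉ A} → Fin q) (u : ({x // x ∈ A} → Fin q) → ℂ) :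
    star Ω ⬝ᵥ prodVec A u b0 = (fun a => star (Ω (glue A a b0))) ⬝ᵥ u := by
  simp only [dotProduct]
  rw [sum_conf A]
  refine Finset.sum_congr rfl fun a _ => ?_
  simp [prodVec]

/-- the function `σ ↦ u(σ with its part in `S` replaced by `g`)` -/
def wfun (A S : Finset V) (u : ({x // x ∈ A} → Fin q) → ℂ) (g : {x // x ∈ S} → Fin q) :
    (V → Fin q) → ℂ :=
  fun σ => u (resIn A (glue S g (resOut S σ)))

/-- L8c -/
theorem wfun_dep (A D : Finset V) (u : ({x // x ∈ A} → Fin q) → ℂ)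
    (g : {x // x ∈ A \ D} → Fin q) (σ σ' : V → Fin q) (h : ∀ x, x ∈ D → σ x = σ' x) :
    wfun A (A \ D) u g σ = wfun A (A \ D) u g σ' := by
  unfold wfun
  congr 1
  rw [resIn_eq_iff]
  intro x hx
  by_cases hxS : x ∈ A \ D
  · rw [glue_of_mem _ _ _ hxS, glue_of_mem _ _ _ hxS]
  · rw [glue_of_not_mem _ _ _ hxS, glue_of_not_mem _ _ _ hxS]
    have hxD : x ∈ D := by
      by_contra hxD
      exact hxS (Finset.mem_sdiff.mpr ⟨hx, hxD⟩)
    exact h x hxD

/-- L8d -/
theorem prodVec_eq_sum (A D : Finset V) (u : ({x // x ∈ A} → Fin q) → ℂ)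
    (b0 : {x // x ∉ A} → Fin q) :
    prodVec A u b0 = fun σ => ∑ g : {x // x ∈ A \ D} → Fin q, wfun A (A \ D) u g σ *
      (if resIn (A \ D) σ = g ∧ resOut A σ = b0 then 1 else 0) := by
  funext σ
  rw [Finset.sum_eq_single (resIn (A \ D) σ)]
  · simp only [prodVec, wfun, glue_res, true_and]
  · intro g _ hg
    rw [if_neg (fun h => hg h.1.symm), mul_zero]
  · intro h
    exact absurd (Finset.mem_univ _) h

/-- L8e -/
theorem DInv_indicator (A D : Finset V) (hDA : D ⊆ A) (g : {x // x ∈ A \ D} → Fin q)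
    (b0 : {x // x ∉ A} → Fin q) :
    DInv D (fun σ : V → Fin q =>
      (if resIn (A \ D) σ = g ∧ resOut A σ = b0 then (1 : ℂ) else 0)) := by
  intro σ σ' h
  have h1 : resIn (A \ D) σ = resIn (A \ D) σ' := by
    rw [resIn_eq_iff]
    intro x hx
    exact h x (Finset.mem_sdiff.mp hx).2
  have h2 : resOut A σ = resOut A σ' := by
    rw [resOut_eq_iff]
    intro x hx
    exact h x (fun hxD => hx (hDA hxD))
  simp only [h1, h2]

end Vale.Agent.P356
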